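import Mathlib

/-!
P254, block SP, row P4 (helper425): scalar algebra of the mode 1 ranges (`c` constant, `q ∈ [q₀,q₁]`) of the
column certificate: the form `(A)` and the reduction of the form `(B)` to one-variable inequalities at
`q₀` and `q₁`.
-/

set_option autoImplicit false

namespace Vale.Agent.P254.SP425

theorem quad_nonneg {a b d x y : ℝ} (ha : 0 ≤ a) (hd : 0 ≤ d) (h : b ^ 2 ≤ 4 * a * d) :
    0 ≤ a * x ^ 2 + b * (x * y) + d * y ^ 2 := by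
  rcases ha.eq_or_lt with h0 | h0
  · have hb : b = 0 := by
      have : b ^ 2 ≤ 0 := by rw [← h0] at h; linarith
      exact pow_eq_zero_iff (two_ne_zero) |>.mp (le_antisymm this (sq_nonneg b))
    rw [← h0, hb]
    nlinarith [mul_nonneg hd (sq_nonneg y)]
  · have h1 : 0 ≤ 4 * a * (a * x ^ 2 + b * (x * y) + d * y ^ 2) := by
      have : 4 * a * (a * x ^ 2 + b * (x * y) + d * y ^ 2)
          = (2 * a * x + b * y) ^ 2 + (4 * a * d - b ^ 2) * y ^ 2 := by ring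
      rw [this]
      have h2 := mul_nonneg (sub_nonneg.2 h) (sq_nonneg y)
      positivity
    exact nonneg_of_mul_nonneg_right h1 (by positivity)

/-- `(a + b)² ≤ (1 + t) a² + (1 + 1/t) b²` -/
theorem sq_add_le {a b t : ℝ} (ht : 0 < t) : (a + b) ^ 2 ≤ (1 + t) * a ^ 2 + (1 + 1 / t) * b ^ 2 := by
  have h : (1 + t) * a ^ 2 + (1 + 1 / t) * b ^ 2 - (a + b) ^ 2 = t * (a - b / t) ^ 2 := by
    field_simp
    ring
  have h2 : 0 ≤ t * (a - b / t) ^ 2 := mul_nonneg ht.le (sq_nonneg _)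
  linarith

/-- the form `(A)` of mode 1 -/
theorem formA_one {c σ ν b₁ L5 L6 L7 B4 τ E S : ℝ} (f al k1 : ℝ) (hc : 1 ≤ c) (hσ : 0 < σ) (hτ : 0 < τ)
    (hS0 : 0 ≤ S) (hS1 : S ≤ 1 / 2)
    (hk : (1 + σ) * (1 + 1 / τ) + (c - 1) * (1 + 2 / τ) ≤ c * b₁)
    (hL5 : 0 ≤ L5) (hB4 : 0 ≤ B4) (hE : 0 ≤ E)
    (h0 : L7 ^ 2 ≤ 4 * E * L5) (h1 : (L7 - (c - 1 - B4) / 4) ^ 2 ≤ 4 * E * (L5 + B4 / 4))
    (hL6 : L6 ≤ c - (1 + 1 / σ) / 16 - c * ν - (1 + σ) * (1 + τ) / 16 - (c - 1) * (1 + τ / 2) / 4 - E) :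
    0 ≤ (c - (1 + 1 / σ) / 16) * f ^ 2 - (c - 1) * (S * f + k1) ^ 2
      - (1 + σ) * (S * f + k1 - 1 / 4 * f) ^ 2 - (c - 1) * (S ^ 2 * al * f)
      + L5 * al ^ 2 + L7 * (al * f) + B4 * (S ^ 2 * al ^ 2 + S ^ 2 * al * f)
      - L6 * f ^ 2 - c * ν * f ^ 2 + c * b₁ * k1 ^ 2 := by
  have a1 : (S * f + k1) ^ 2 ≤ (1 + τ / 2) * (S * f) ^ 2 + (1 + 2 / τ) * k1 ^ 2 := by
    have h := sq_add_le (a := S * f) (b := k1) (t := τ / 2) (by positivity)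
    have e : (1 : ℝ) / (τ / 2) = 2 / τ := by field_simp
    rwa [e] at h
  have a2 : (S * f + k1 - 1 / 4 * f) ^ 2 ≤ (1 + τ) * ((S - 1 / 4) * f) ^ 2 + (1 + 1 / τ) * k1 ^ 2 := by
    have h := sq_add_le (a := (S - 1 / 4) * f) (b := k1) (t := τ) hτ
    have e : (S - 1 / 4) * f + k1 = S * f + k1 - 1 / 4 * f := by ring
    rwa [e] at h
  have b1 : (S * f) ^ 2 ≤ 1 / 4 * f ^ 2 := by
    rw [mul_pow]
    exact mul_le_mul_of_nonneg_right (by nlinarith) (sq_nonneg f)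
  have b2 : ((S - 1 / 4) * f) ^ 2 ≤ 1 / 16 * f ^ 2 := by
    rw [mul_pow]
    exact mul_le_mul_of_nonneg_right (by nlinarith) (sq_nonneg f)
  have c1 : (c - 1) * (S * f + k1) ^ 2
      ≤ (c - 1) * (1 + τ / 2) / 4 * f ^ 2 + (c - 1) * (1 + 2 / τ) * k1 ^ 2 := by
    have h := mul_le_mul_of_nonneg_left (a1.trans (add_le_add_left
      (mul_le_mul_of_nonneg_left b1 (show 0 ≤ 1 + τ / 2 by positivity)) _)) (sub_nonneg.2 hc)
    linarith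
  have c2 : (1 + σ) * (S * f + k1 - 1 / 4 * f) ^ 2
      ≤ (1 + σ) * (1 + τ) / 16 * f ^ 2 + (1 + σ) * (1 + 1 / τ) * k1 ^ 2 := by
    have h := mul_le_mul_of_nonneg_left (a2.trans (add_le_add_left
      (mul_le_mul_of_nonneg_left b2 (show 0 ≤ 1 + τ by positivity)) _)) (show 0 ≤ 1 + σ by positivity)
    linarith
  have d1 : ((1 + σ) * (1 + 1 / τ) + (c - 1) * (1 + 2 / τ)) * k1 ^ 2 ≤ c * b₁ * k1 ^ 2 :=
    mul_le_mul_of_nonneg_right hk (sq_nonneg k1)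
  -- the `al` part
  have hX0 : 0 ≤ S ^ 2 := sq_nonneg S
  have hX1 : S ^ 2 ≤ 1 / 4 := by nlinarith
  have e1 : (L7 - (c - 1 - B4) * S ^ 2) ^ 2 ≤ 4 * E * (L5 + B4 * S ^ 2) := by
    have k : (L7 - (c - 1 - B4) * S ^ 2) ^ 2
        ≤ (1 - 4 * S ^ 2) * L7 ^ 2 + 4 * S ^ 2 * (L7 - (c - 1 - B4) / 4) ^ 2 := by
      have : (1 - 4 * S ^ 2) * L7 ^ 2 + 4 * S ^ 2 * (L7 - (c - 1 - B4) / 4) ^ 2
          - (L7 - (c - 1 - B4) * S ^ 2) ^ 2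
          = (c - 1 - B4) ^ 2 * (S ^ 2 * (1 / 4 - S ^ 2)) := by ring
      have h : 0 ≤ (c - 1 - B4) ^ 2 * (S ^ 2 * (1 / 4 - S ^ 2)) :=
        mul_nonneg (sq_nonneg _) (mul_nonneg hX0 (by linarith))
      linarith
    have k0 := mul_le_mul_of_nonneg_left h0 (show 0 ≤ 1 - 4 * S ^ 2 by linarith)
    have k1 := mul_le_mul_of_nonneg_left h1 (show 0 ≤ 4 * S ^ 2 by linarith)
    calc _ ≤ _ := k
      _ ≤ (1 - 4 * S ^ 2) * (4 * E * L5) + 4 * S ^ 2 * (4 * E * (L5 + B4 / 4)) := add_le_add k0 k1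
      _ = _ := by ring
  have e2 := quad_nonneg (a := E) (b := L7 - (c - 1 - B4) * S ^ 2) (d := L5 + B4 * S ^ 2) (x := f)
    (y := al) hE (add_nonneg hL5 (mul_nonneg hB4 hX0)) e1
  have f1 := mul_le_mul_of_nonneg_right hL6 (sq_nonneg f)
  linarith [c1, c2, d1, e2, f1]

/-- the one-variable function of mode 1; `z` stands for `1 / (4 zz)` -/
noncomputable def PhiB (c ℓ L1 l2 l3 L4 L5 T0 Mt B4 kp ρ e1 e2 Y q z g S w θ θ1 : ℝ) : ℝ :=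
  (c - 1) * ((q - 1) * w) - ℓ + L4 * g - L5 * q + T0 * (g ^ 2 - q) + Mt * (θ * g - θ1 * q)
    - B4 * S ^ 2 * q - e1 * q - e2 * S * q - kp * (q - 1) ^ 2 / 128 - c * ρ
    - ((c - 1 - Mt) * θ + L1 + l2 * g) ^ 2 / (4 * Y)
    - ((c - 1) * w + l3 - Mt * θ1 - B4 * S ^ 2) ^ 2 * z

/-- concavity in `q` -/
theorem phiB_chord {c ℓ L1 l2 l3 L4 L5 T0 Mt B4 kp ρ e1 e2 Y q q0 q1 α β g S w θ θ1 : ℝ}
    (hkp : 0 ≤ kp) (h0 : q0 ≤ q) (h1 : q ≤ q1) (h01 : q0 < q1)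
    (H0 : 0 ≤ PhiB c ℓ L1 l2 l3 L4 L5 T0 Mt B4 kp ρ e1 e2 Y q0 (α + β * q0) g S w θ θ1)
    (H1 : 0 ≤ PhiB c ℓ L1 l2 l3 L4 L5 T0 Mt B4 kp ρ e1 e2 Y q1 (α + β * q1) g S w θ θ1) :
    0 ≤ PhiB c ℓ L1 l2 l3 L4 L5 T0 Mt B4 kp ρ e1 e2 Y q (α + β * q) g S w θ θ1 := by
  have k0 := mul_nonneg (sub_nonneg.2 h1) H0
  have k1 := mul_nonneg (sub_nonneg.2 h0) H1
  have k2 := mul_nonneg (mul_nonneg hkp (sub_nonneg.2 h01.le))
    (mul_nonneg (sub_nonneg.2 h1) (sub_nonneg.2 h0))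
  have e : (q1 - q0) * PhiB c ℓ L1 l2 l3 L4 L5 T0 Mt B4 kp ρ e1 e2 Y q (α + β * q) g S w θ θ1
      = (q1 - q) * PhiB c ℓ L1 l2 l3 L4 L5 T0 Mt B4 kp ρ e1 e2 Y q0 (α + β * q0) g S w θ θ1
        + (q - q0) * PhiB c ℓ L1 l2 l3 L4 L5 T0 Mt B4 kp ρ e1 e2 Y q1 (α + β * q1) g S w θ θ1
        + kp * (q1 - q0) * ((q1 - q) * (q - q0)) / 128 := by
    unfold PhiB; ring
  have h : 0 ≤ (q1 - q0) * PhiB c ℓ L1 l2 l3 L4 L5 T0 Mt B4 kp ρ e1 e2 Y q (α + β * q) g S w θ θ1 := by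
    rw [e]; positivity
  exact nonneg_of_mul_nonneg_right h (sub_pos.2 h01)

/-- `z = α + β q` dominates `1/(4 zz)`, `zz = c ν / q - kp / 128`, between the two end points -/
theorem z_chord {c ν kp q q0 q1 α β : ℝ} (hkp : 0 ≤ kp) (hβ : 0 ≤ β) (h0 : q0 ≤ q) (h1 : q ≤ q1)
    (h01 : q0 < q1)
    (H0 : q0 ≤ (α + β * q0) * (4 * c * ν - kp * q0 / 32))
    (H1 : q1 ≤ (α + β * q1) * (4 * c * ν - kp * q1 / 32)) :
    q ≤ (α + β * q) * (4 * c * ν - kp * q / 32) := by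
  have k0 := mul_nonneg (sub_nonneg.2 h1) (sub_nonneg.2 H0)
  have k1 := mul_nonneg (sub_nonneg.2 h0) (sub_nonneg.2 H1)
  have k2 := mul_nonneg (mul_nonneg (mul_nonneg hkp hβ) (sub_nonneg.2 h01.le))
    (mul_nonneg (sub_nonneg.2 h1) (sub_nonneg.2 h0))
  have h : 0 ≤ (q1 - q0) * ((α + β * q) * (4 * c * ν - kp * q / 32) - q) := by
    have e : (q1 - q0) * ((α + β * q) * (4 * c * ν - kp * q / 32) - q)
        = (q1 - q) * ((α + β * q0) * (4 * c * ν - kp * q0 / 32) - q0)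
          + (q - q0) * ((α + β * q1) * (4 * c * ν - kp * q1 / 32) - q1)
          + kp * β * (q1 - q0) * ((q1 - q) * (q - q0)) / 32 := by ring
    rw [e]; positivity
  have := nonneg_of_mul_nonneg_right h (sub_pos.2 h01)
  linarith

/-- the square of the trial term: `((S - 1/4) y + ρ₂ t + k)² ≤ kp/16 y² + kp/128 t² + b k²` -/
theorem square_le {S r2 y t k kp b : ℝ} (hρ : 8 * r2 ^ 2 ≤ S * (1 / 2 - S)) (hkp : 1 < kp)
    (hb : kp ≤ b * (kp - 1)) :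
    ((S - 1 / 4) * y + r2 * t + k) ^ 2 ≤ kp / 16 * y ^ 2 + kp / 128 * t ^ 2 + b * k ^ 2 := by
  have h1 : ((S - 1 / 4) * y + r2 * t + k) ^ 2
      ≤ kp * ((S - 1 / 4) * y + r2 * t) ^ 2 + b * k ^ 2 := by
    have h := sq_add_le (a := (S - 1 / 4) * y + r2 * t) (b := k) (t := kp - 1) (by linarith)
    have e : 1 + 1 / (kp - 1) ≤ b := by
      have h2 : kp - 1 ≠ 0 := by linarith
      rw [show (1 : ℝ) + 1 / (kp - 1) = kp / (kp - 1) by field_simp; ring,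
        div_le_iff₀ (by linarith)]
      exact hb
    have h3 := mul_le_mul_of_nonneg_right e (sq_nonneg k)
    have h4 : (1 + (kp - 1)) = kp := by ring
    rw [h4] at h
    linarith
  have h2 : ((S - 1 / 4) * y + r2 * t) ^ 2 ≤ 1 / 16 * (y ^ 2 + t ^ 2 / 8) := by
    have h3 : ((S - 1 / 4) * y + r2 * t) ^ 2 ≤ ((S - 1 / 4) ^ 2 + 8 * r2 ^ 2) * (y ^ 2 + t ^ 2 / 8) := by
      have : ((S - 1 / 4) ^ 2 + 8 * r2 ^ 2) * (y ^ 2 + t ^ 2 / 8) - ((S - 1 / 4) * y + r2 * t) ^ 2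
          = ((S - 1 / 4) * t - 8 * r2 * y) ^ 2 / 8 := by ring
      have h5 : 0 ≤ ((S - 1 / 4) * t - 8 * r2 * y) ^ 2 / 8 := by positivity
      linarith
    have h4 : (S - 1 / 4) ^ 2 + 8 * r2 ^ 2 ≤ 1 / 16 := by nlinarith
    exact h3.trans (mul_le_mul_of_nonneg_right h4 (by positivity))
  have h3 := mul_le_mul_of_nonneg_left h2 (show 0 ≤ kp by linarith)
  linarith

/-- `x κ` is paid by `b κ²` -/
theorem cross_le {γ x k b e : ℝ} (hb : 0 < b) (he : γ ^ 2 ≤ 4 * b * e) :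
    -(e * x ^ 2) ≤ x * (γ * k) + b * k ^ 2 := by
  have he0 : 0 ≤ e := by
    by_contra h
    have : 4 * b * e < 0 := mul_neg_of_pos_of_neg (by linarith) (not_le.1 h)
    linarith [sq_nonneg γ]
  have h := quad_nonneg (a := e) (b := γ) (d := b) (x := x) (y := k) he0 hb.le
    (by linarith [he, show 4 * e * b = 4 * b * e by ring])
  linarith [show γ * (x * k) = x * (γ * k) by ring]

/-- positivity of the `3 × 3` form with `yz = 0` -/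
theorem form3 {xx XY XZ Y ZZ z x y ze : ℝ} (hY : 0 < Y) (hZ : 0 < ZZ) (hz : 1 ≤ 4 * ZZ * z)
    (h : 0 ≤ xx - XY ^ 2 / (4 * Y) - XZ ^ 2 * z) :
    0 ≤ xx * x ^ 2 + XY * (x * y) + Y * y ^ 2 + XZ * (x * ze) + ZZ * ze ^ 2 := by
  have a1 : -(XY ^ 2 / (4 * Y) * x ^ 2) ≤ XY * (x * y) + Y * y ^ 2 := by
    have : XY * (x * y) + Y * y ^ 2 + XY ^ 2 / (4 * Y) * x ^ 2 = Y * (y + XY / (2 * Y) * x) ^ 2 := by
      field_simp; ring
    have h2 := mul_nonneg hY.le (sq_nonneg (y + XY / (2 * Y) * x))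
    linarith
  have a2 : -(XZ ^ 2 * z * x ^ 2) ≤ XZ * (x * ze) + ZZ * ze ^ 2 := by
    have h3 := cross_le (γ := XZ) (x := x) (k := ze) (b := ZZ) (e := XZ ^ 2 * z) hZ (by
      have := mul_le_mul_of_nonneg_left hz (sq_nonneg XZ)
      linarith [show XZ ^ 2 * (4 * ZZ * z) = 4 * ZZ * (XZ ^ 2 * z) by ring])
    linarith [show XZ * (x * ze) = x * (XZ * ze) by ring]
  have a3 := mul_nonneg h (sq_nonneg x)
  linarith [show (xx - XY ^ 2 / (4 * Y) - XZ ^ 2 * z) * x ^ 2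
    = xx * x ^ 2 - XY ^ 2 / (4 * Y) * x ^ 2 - XZ ^ 2 * z * x ^ 2 by ring]

/-- **the form `(B)` of mode 1** -/
theorem formB_one {c Pc ν ρ b2 b3 b4 ℓ ℓ' L1 l2 l3 L4 L5 L6 T0 Mt B4 kp e1 e2 Y γ1 γ2 α β q q0 q1
    g S w θ θ1 r2 : ℝ} (x y ze k0 k1 k2 : ℝ)
    (hc : 0 < c) (hρ : 0 ≤ ρ) (hq0 : 0 < q0) (h0 : q0 ≤ q) (h1 : q ≤ q1) (h01 : q0 < q1)
    (hb3 : 0 < b3) (hb4 : 0 < b4)
    (hr2 : 8 * r2 ^ 2 ≤ S * (1 / 2 - S))
    (hkp : 1 < kp) (hb2 : kp * q1 ≤ c * b2 * (kp - 1)) (hℓ : ℓ ≤ ℓ')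
    (he1 : γ1 ^ 2 ≤ 4 * (c * b3) * e1) (he2 : γ2 ^ 2 ≤ 4 * (c * b4) * (e2 * S))
    (hY0 : 0 < Y) (hY : Y ≤ -Pc + 2 * L6 - kp / 16 - (l2 + T0) - c * ρ)
    (hβ : 0 ≤ β) (hZ0 : kp * q1 < 128 * (c * ν))
    (hz0 : q0 ≤ (α + β * q0) * (4 * c * ν - kp * q0 / 32))
    (hz1 : q1 ≤ (α + β * q1) * (4 * c * ν - kp * q1 / 32))
    (H0 : 0 ≤ PhiB c ℓ' L1 l2 l3 L4 L5 T0 Mt B4 kp ρ e1 e2 Y q0 (α + β * q0) g S w θ θ1)
    (H1 : 0 ≤ PhiB c ℓ' L1 l2 l3 L4 L5 T0 Mt B4 kp ρ e1 e2 Y q1 (α + β * q1) g S w θ θ1) :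
    0 ≤ -(Pc * y ^ 2) - (S * y + (q - 1) * r2 * x + r2 * ze + k0 - 1 / 4 * y) ^ 2
      + (c - 1) * ((q - 1) * (w * x ^ 2) + w * x * ze + θ * x * y) - ℓ * x ^ 2
      + L1 * (x * y) + (l2 + T0) * (g * x * y - y ^ 2) + (l3 + T0 + kp * (q - 1) / 64) * (x * ze)
      + L4 * (g * x ^ 2) - L5 * q * x ^ 2
      + T0 * (g * g * x ^ 2 - g * x * y - 1 * x * (q * x + ze))
      + Mt * (θ * g * x ^ 2 - θ * x * y - θ1 * x * (q * x + ze))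
      - B4 * (S ^ 2 * x * (q * x + ze))
      + 2 * L6 * y ^ 2 + x * (γ1 * k1 + γ2 * k2)
      + c * ν * q⁻¹ * ze ^ 2 + (c * b2 * q⁻¹ * k0 ^ 2 + c * b3 * q⁻¹ * k1 ^ 2 + c * b4 * q⁻¹ * k2 ^ 2)
      - c * ρ * (y ^ 2 + min 1 ((q - 1) ^ 2) * x ^ 2) := by
  have hq : 0 < q := by linarith
  have hqi : 0 < q⁻¹ := inv_pos.2 hq
  -- the square
  have s1 : (S * y + (q - 1) * r2 * x + r2 * ze + k0 - 1 / 4 * y) ^ 2
      ≤ kp / 16 * y ^ 2 + kp / 128 * ((q - 1) * x + ze) ^ 2 + c * b2 * q⁻¹ * k0 ^ 2 := by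
    have h := square_le (S := S) (r2 := r2) (y := y) (t := (q - 1) * x + ze) (k := k0) (kp := kp)
      (b := c * b2 * q⁻¹) hr2 hkp (by
        have hk0 : 0 < kp := by linarith
        have : kp * q ≤ c * b2 * (kp - 1) := le_trans (mul_le_mul_of_nonneg_left h1 hk0.le) hb2
        have h2 := mul_le_mul_of_nonneg_left this hqi.le
        have e : q⁻¹ * (kp * q) = kp := by field_simp
        rw [e] at h2
        linarith [show q⁻¹ * (c * b2 * (kp - 1)) = c * b2 * q⁻¹ * (kp - 1) by ring])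
    have e : (S - 1 / 4) * y + r2 * ((q - 1) * x + ze) + k0
        = S * y + (q - 1) * r2 * x + r2 * ze + k0 - 1 / 4 * y := by ring
    rwa [e] at h
  -- the kernels
  have s2 : -(e1 * q * x ^ 2) ≤ x * (γ1 * k1) + c * b3 * q⁻¹ * k1 ^ 2 :=
    cross_le (by positivity) (by
      have e : 4 * (c * b3 * q⁻¹) * (e1 * q) = 4 * (c * b3) * e1 := by field_simp
      rw [e]; exact he1)
  have s3 : -(e2 * S * q * x ^ 2) ≤ x * (γ2 * k2) + c * b4 * q⁻¹ * k2 ^ 2 :=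
    cross_le (by positivity) (by
      have e : 4 * (c * b4 * q⁻¹) * (e2 * S * q) = 4 * (c * b4) * (e2 * S) := by field_simp
      rw [e]; exact he2)
  -- `zz`
  have hkp0 : 0 < kp := by linarith
  have z1 : 0 < c * ν * q⁻¹ - kp / 128 := by
    have : kp * q < 128 * (c * ν) := lt_of_le_of_lt (mul_le_mul_of_nonneg_left h1 hkp0.le) hZ0
    have h2 := mul_lt_mul_of_pos_left this hqi
    have e : q⁻¹ * (kp * q) = kp := by field_simp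
    rw [e] at h2
    linarith [show q⁻¹ * (128 * (c * ν)) = 128 * (c * ν * q⁻¹) by ring]
  have z2 : 1 ≤ 4 * (c * ν * q⁻¹ - kp / 128) * (α + β * q) := by
    have h := z_chord (c := c) (ν := ν) hkp0.le hβ h0 h1 h01 hz0 hz1
    have h2 := mul_le_mul_of_nonneg_left h hqi.le
    have e1 : q⁻¹ * q = 1 := inv_mul_cancel₀ hq.ne'
    have e2 : q⁻¹ * ((α + β * q) * (4 * c * ν - kp * q / 32))
        = 4 * (c * ν * q⁻¹ - kp / 128) * (α + β * q) := by field_simp; ring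
    rw [e1, e2] at h2
    exact h2
  have hP := phiB_chord (q := q) hkp0.le h0 h1 h01 H0 H1
  -- the `3 × 3` form
  have hF := form3 (xx := (c - 1) * ((q - 1) * w) - ℓ' + L4 * g - L5 * q + T0 * (g ^ 2 - q)
      + Mt * (θ * g - θ1 * q) - B4 * S ^ 2 * q - e1 * q - e2 * S * q - kp * (q - 1) ^ 2 / 128 - c * ρ)
    (XY := (c - 1 - Mt) * θ + L1 + l2 * g) (XZ := (c - 1) * w + l3 - Mt * θ1 - B4 * S ^ 2) (Y := Y)
    (ZZ := c * ν * q⁻¹ - kp / 128) (z := α + β * q) (x := x) (y := y) (ze := ze) hY0 z1 z2 hP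
  have m1 : c * ρ * (min 1 ((q - 1) ^ 2) * x ^ 2) ≤ c * ρ * (1 * x ^ 2) :=
    mul_le_mul_of_nonneg_left (mul_le_mul_of_nonneg_right (min_le_left _ _) (sq_nonneg x))
      (by positivity)
  have m2 := mul_le_mul_of_nonneg_right hY (sq_nonneg y)
  have m3 := mul_le_mul_of_nonneg_right hℓ (sq_nonneg x)
  linarith [s1, s2, s3, hF, m1, m2, m3]

end Vale.Agent.P254.SP425
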