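import Vale.Agent.P254.SP.H425.One
import Vale.Agent.P254.SP.H979.Small
import Vale.Agent.P254.H721.Env

/-!
P254, block SP, row P4 (helper425): the range `q ∈ [4,7]` (mode 1) of the column certificate, from two
one-variable inequalities.
-/

set_option autoImplicit false

namespace Vale.Agent.P254.SP425

open Vale.Agent.P254.SP Vale.Agent.P254.SP38 Vale.Agent.P254.SP151 Vale.Agent.P254

/-- the two one-variable inequalities of the range `[4,7]` -/
def Phi47 (q z : ℝ) : Prop := ∀ g : ℝ,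
  0 ≤ PhiB (17 / 10) (81 / 400) (-79 / 100) (-31 / 200) (-3 / 20) (-11 / 50) (3 / 2000) (19 / 1000)
    (903 / 10000) (21 / 200) (29 / 25) (1 / 1000) (8828 / 1000000) (13 / 10000) (43 / 100) q z g
    (H721.r1 g) (H721.wf g) (H721.th g) (H721.wf g + H721.r1 g ^ 2)

theorem log_17 : 17 / 10 * Real.log (17 / 10) - 17 / 10 + 1 ≤ 81 / 400 := by
  have h : Real.log (17 / 10) ≤ 361 / 680 := by
    rw [Real.log_le_iff_le_exp (by norm_num)]
    have h1 := Real.sum_le_exp_of_nonneg (x := 361 / 680) (by norm_num) 7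
    refine le_trans ?_ h1
    norm_num [Finset.sum_range_succ, Nat.factorial]
  linarith

/-- the one-variable functions of any `P : F1` are those of `H721` -/
theorem br_w (P : F1) (g : ℝ) : w0 P g = H721.wf g := by
  unfold w0 H721.wf
  rw [SP979.h0 P, SP979.h1 P, SP979.h2 P]

theorem br_th (P : F1) (g : ℝ) : SP38.th P g = H721.th g := by
  unfold SP38.th H721.th
  rw [SP979.h0 P, SP979.h1 P]
  ring

theorem br_th1 (P : F1) (g : ℝ) : SP38.th1 P g = H721.wf g + H721.r1 g ^ 2 := by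
  unfold SP38.th1 H721.wf
  rw [SP979.h0 P, SP979.h1 P, SP979.h2 P]
  ring

theorem br_key (P : F1) (g : ℝ) : 8 * P.r'' g ^ 2 ≤ P.r' g * (1 / 2 - P.r' g) := by
  rw [SP979.h1 P, SP979.h2 P]
  exact H721.key8 g

theorem pw_47 (P : F1) (H0 : Phi47 4 (1003 / 100)) (H1 : Phi47 7 (2412 / 100)) {q : ℝ} (h4 : 4 ≤ q)
    (h7 : q ≤ 7) :
    PW P q (2 / 25) 10 (1 / 1000) (wfam P) bfam 0
      (mult1 P (17 / 10) (5 / 8) (3 / 10) (-79 / 100) (-31 / 200) (-3 / 20) (-11 / 50)
        (3 / 2000) (953 / 1000) (7 / 250) (19 / 1000) (29 / 25) q) := by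
  have c1 : ((17 / 10 - 1) * (3 / 10 * (43 / 100)) : ℝ) = 903 / 10000 := by norm_num
  have c2 : ((17 / 10 - 1) * (3 / 10 * (1 / 2)) : ℝ) = 21 / 200 := by norm_num
  have c3 : (-2627 / 300 + 1409 / 300 * 4 : ℝ) = 1003 / 100 := by norm_num
  have c4 : (-2627 / 300 + 1409 / 300 * 7 : ℝ) = 2412 / 100 := by norm_num
  refine pw_one P (br_key P) (τ := 21 / 100) (E := 33 / 250) (ℓ' := 81 / 400)
    (e1 := 8828 / 1000000) (e2 := 13 / 10000) (Y := 43 / 100) (α := -2627 / 300) (β := 1409 / 300)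
    (q0 := 4) (q1 := 7) (hc := by norm_num) (hσ := by norm_num) (hτ := by norm_num)
    (hm := by norm_num) (hk := by norm_num) (hL5 := by norm_num) (hE := by norm_num)
    (hE0 := by norm_num) (hE1 := by norm_num) (hL6p := by norm_num) (hL6 := by norm_num)
    (hρ := by norm_num) (hq0 := by norm_num) (h0 := h4) (h1 := h7) (h01 := by norm_num)
    (hkp := by norm_num) (hb2 := by norm_num) (hℓ := log_17) (he1 := by norm_num)
    (he2 := by norm_num) (hY0 := by norm_num) (hY := by norm_num) (hβ := by norm_num)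
    (hZ0 := by norm_num) (hz0 := by norm_num) (hz1 := by norm_num) (H0 := ?_) (H1 := ?_)
  · intro g
    rw [c1, c2, c3, SP979.h1 P, br_w, br_th, br_th1]
    exact H0 g
  · intro g
    rw [c1, c2, c4, SP979.h1 P, br_w, br_th, br_th1]
    exact H1 g

end Vale.Agent.P254.SP425
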