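import Vale.Agent.P254.SP.H151.Glue
import Vale.Agent.P254.SP.H425.R47
import Vale.Agent.P254.H721.R47

/-!
P254, block SP, row P4 (helper425): the columns `q ∈ [4,7]` are certified in mode 1 (one-variable
inequalities: helper721).
-/

set_option autoImplicit false

namespace Vale.Agent.P254.SP425

open Vale.Agent.P254.SP Vale.Agent.P254.SP151

/-- **the range `[4,7]`** -/
theorem h47 (P : F1) (q : ℝ) (h4 : 4 ≤ q) (h7 : q ≤ 7) : PWm1 P q :=
  ⟨_, pw_47 P H721.phiB_4 H721.phiB_7 h4 h7⟩

end Vale.Agent.P254.SP425
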