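import Vale.Agent.P254.SP.H151.Fam
import Vale.Agent.P254.SP.H425.Scal

/-!
P254, block SP, row P4 (helper425): the pointwise certificate `PW` of a mode 1 range `q ∈ [q₀,q₁]` from
scalar side conditions and two one-variable inequalities.
-/

set_option autoImplicit false

namespace Vale.Agent.P254.SP425

open Vale.Agent.P254.SP Vale.Agent.P254.SP38 Vale.Agent.P254.SP151

/-- multipliers of a mode 1 range: `c` constant, commutator share `m` of the kernel `ktot` -/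
noncomputable def mult1 (P : F1) (c σ m L1 l2 l3 L4 L5 L6 L7 T0 kp q : ℝ) : Mult 3 where
  c := c
  σ := σ
  L1 := L1
  L2 := l2 + T0
  L3 := l3 + T0 + kp * (q - 1) / 64
  L4 := L4
  L5 := L5
  L6 := L6
  L7 := L7
  T0 := T0
  Mt := (c - 1) * (m * (43 / 100))
  Mr := 0
  B4 := (c - 1) * (m * (1 / 2))
  γ := ![fun _ => 0, fun _ => (c - 1) * (1 - m), fun x => (c - 1) * m * Real.sqrt (P.r' x)]

/-- **mode 1 range** -/
theorem pw_one (P : F1) (h8 : ∀ g, 8 * P.r'' g ^ 2 ≤ P.r' g * (1 / 2 - P.r' g))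
    {c σ m L1 l2 l3 L4 L5 L6 L7 T0 kp ν b₁ ρ τ E ℓ' e1 e2 Y α β q q0 q1 : ℝ}
    (hc : 1 ≤ c) (hσ : 0 < σ) (hτ : 0 < τ) (hm : 0 ≤ m)
    (hk : (1 + σ) * (1 + 1 / τ) + (c - 1) * (1 + 2 / τ) ≤ c * b₁)
    (hL5 : 0 ≤ L5) (hE : 0 ≤ E)
    (hE0 : L7 ^ 2 ≤ 4 * E * L5)
    (hE1 : (L7 - (c - 1 - (c - 1) * (m * (1 / 2))) / 4) ^ 2
      ≤ 4 * E * (L5 + (c - 1) * (m * (1 / 2)) / 4))
    (hL6p : 0 ≤ L6)
    (hL6 : L6 ≤ c - (1 + 1 / σ) / 16 - c * ν - (1 + σ) * (1 + τ) / 16 - (c - 1) * (1 + τ / 2) / 4 - E)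
    (hρ : 0 ≤ ρ) (hq0 : 0 < q0) (h0 : q0 ≤ q) (h1 : q ≤ q1) (h01 : q0 < q1)
    (hkp : 1 < kp) (hb2 : kp * q1 ≤ c * 30 * (kp - 1))
    (hℓ : c * Real.log c - c + 1 ≤ ℓ')
    (he1 : ((c - 1) * (1 - m)) ^ 2 ≤ 4 * (c * 4) * e1)
    (he2 : ((c - 1) * m) ^ 2 ≤ 4 * (c * 5) * e2)
    (hY0 : 0 < Y) (hY : Y ≤ -(c - (1 + 1 / σ) / 16) + 2 * L6 - kp / 16 - (l2 + T0) - c * ρ)
    (hβ : 0 ≤ β) (hZ0 : kp * q1 < 128 * (c * ν))
    (hz0 : q0 ≤ (α + β * q0) * (4 * c * ν - kp * q0 / 32))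
    (hz1 : q1 ≤ (α + β * q1) * (4 * c * ν - kp * q1 / 32))
    (H0 : ∀ g, 0 ≤ PhiB c ℓ' L1 l2 l3 L4 L5 T0 ((c - 1) * (m * (43 / 100))) ((c - 1) * (m * (1 / 2)))
      kp ρ e1 e2 Y q0 (α + β * q0) g (P.r' g) (w0 P g) (th P g) (th1 P g))
    (H1 : ∀ g, 0 ≤ PhiB c ℓ' L1 l2 l3 L4 L5 T0 ((c - 1) * (m * (43 / 100))) ((c - 1) * (m * (1 / 2)))
      kp ρ e1 e2 Y q1 (α + β * q1) g (P.r' g) (w0 P g) (th P g) (th1 P g)) :
    PW P q ν b₁ ρ (wfam P) bfam 0 (mult1 P c σ m L1 l2 l3 L4 L5 L6 L7 T0 kp q) := by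
  have hc0 : 0 < c := by linarith
  refine ⟨hc0, hσ, hL6p, ?_, ?_, ?_⟩
  · intro x y
    have hs : Real.sqrt (P.r' x) ≠ 0 := (Real.sqrt_pos.2 (P.r'_pos x)).ne'
    rw [Fin.sum_univ_three]
    show (c - 1) * SP151.ck P x y
        - (c - 1) * (m * (43 / 100)) * (dd (th P) (th1 P) x y - th1 P x)
        - 0 * (dd P.r P.r' x y - P.r' x)
        - (c - 1) * (m * (1 / 2)) * (P.r' y ^ 2 - P.r' x ^ 2)
      = 0 * (dd P.r' P.r'' x y - P.r'' x) + (c - 1) * (1 - m) * ck P x y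
        + (c - 1) * m * Real.sqrt (P.r' x) * (ktot P (43 / 100) (1 / 2) x y / Real.sqrt (P.r' x))
    have e : (c - 1) * m * Real.sqrt (P.r' x) * (ktot P (43 / 100) (1 / 2) x y / Real.sqrt (P.r' x))
        = (c - 1) * m * ktot P (43 / 100) (1 / 2) x y := by
      field_simp
    rw [e]
    unfold ktot
    ring
  · intro g f al k1
    exact formA_one f al k1 hc hσ hτ (P.r'_pos g).le (P.r'_lt g).le hk hL5
      (mul_nonneg (by linarith) (by positivity)) hE hE0 hE1 hL6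
  · intro g x y ze ka _
    have hr := P.r'_pos g
    have h := formB_one (c := c) (Pc := c - (1 + 1 / σ) / 16) (ν := ν) (ρ := ρ) (b2 := 30) (b3 := 4)
      (b4 := 5) (ℓ := c * Real.log c - c + 1) (ℓ' := ℓ') (L1 := L1) (l2 := l2) (l3 := l3) (L4 := L4)
      (L5 := L5) (L6 := L6) (T0 := T0) (Mt := (c - 1) * (m * (43 / 100)))
      (B4 := (c - 1) * (m * (1 / 2))) (kp := kp) (e1 := e1) (e2 := e2) (Y := Y)
      (γ1 := (c - 1) * (1 - m)) (γ2 := (c - 1) * m * Real.sqrt (P.r' g)) (α := α) (β := β) (q := q)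
      (q0 := q0) (q1 := q1) (g := g) (S := P.r' g) (w := w0 P g) (θ := th P g) (θ1 := th1 P g)
      (r2 := P.r'' g) x y ze (ka 0) (ka 1) (ka 2) hc0 hρ hq0 h0 h1 h01 (by norm_num) (by norm_num)
      (h8 g) hkp hb2 hℓ he1 (by
        rw [mul_pow, Real.sq_sqrt hr.le]
        calc ((c - 1) * m) ^ 2 * P.r' g ≤ 4 * (c * 5) * e2 * P.r' g :=
              mul_le_mul_of_nonneg_right he2 hr.le
          _ = 4 * (c * 5) * (e2 * P.r' g) := by ring)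
      hY0 hY hβ hZ0 hz0 hz1 (H0 g) (H1 g)
    refine h.trans_eq ?_
    unfold FormB
    rw [Fin.sum_univ_three, Fin.sum_univ_three]
    simp only [mult1, bfam, Matrix.cons_val_zero, Matrix.cons_val_one, Matrix.cons_val]
    ring

end Vale.Agent.P254.SP425
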